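import Vale.Agent.P162.Upper

namespace Vale.Agent.Results.P162.UpperBound

open Vale.Agent.P162

/-- Thorp shuffle of `n = 2 ^ d` cards (`thorpDist (2 ^ (d - 1)) t` is the total variation distance
from uniform after `t` shuffles): there is an absolute constant `C` such that for every `d ≥ 1` and
every `t ≥ C d ^ 2` the distance is at most `1 / 4`; that is, `t_mix (2 ^ d) ≤ C d ^ 2`. -/
theorem result :
    ∃ C : ℕ, ∀ d : ℕ, 1 ≤ d → ∀ t : ℕ, C * d ^ 2 ≤ t → thorpDist (2 ^ (d - 1)) t ≤ 1 / 4 :=
  thorp_upper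

end Vale.Agent.Results.P162.UpperBound
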