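import Vale.Agent.Results.P162.LowerBound
import Vale.Agent.Results.P162.UpperBound

namespace Vale.Agent.Results.P162.A0_TwoSided

open Vale.Agent.P162

/-- Thorp shuffle of `n = 2 ^ d` cards (`thorpDist (2 ^ (d - 1)) t` is the total variation distance
from uniform after `t` shuffles).  Upper bound: there is an absolute constant `C` such that for
every `d ≥ 1` and every `t ≥ C d ^ 2` the distance is at most `1 / 4`.  Lower bound: for `d ≥ 2`,
up to time `2 d - 2` the distance is at least `1 - C(n/2, n/4)^2 / C(n, n/2)`, hence at least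
`1 - 2 / sqrt n` and at least `1 / 3`; so every `t` with distance at most `1 / 4` satisfies
`t ≥ 2 d - 1`. -/
theorem result :
    (∃ C : ℕ, ∀ d : ℕ, 1 ≤ d → ∀ t : ℕ, C * d ^ 2 ≤ t → thorpDist (2 ^ (d - 1)) t ≤ 1 / 4) ∧
    (∀ d : ℕ, 2 ≤ d →
      (∀ t : ℕ, t ≤ 2 * d - 2 →
        1 - ((2 ^ (d - 1)).choose (2 ^ (d - 2)) : ℝ) ^ 2 / ((2 ^ d).choose (2 ^ (d - 1)) : ℝ)
            ≤ thorpDist (2 ^ (d - 1)) t
          ∧ 1 - 2 / Real.sqrt (2 ^ d) ≤ thorpDist (2 ^ (d - 1)) t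
          ∧ 1 / 3 ≤ thorpDist (2 ^ (d - 1)) t)
      ∧ (∀ t : ℕ, thorpDist (2 ^ (d - 1)) t ≤ 1 / 4 → 2 * d - 1 ≤ t)) :=
  ⟨UpperBound.result, LowerBound.result⟩

end Vale.Agent.Results.P162.A0_TwoSided
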