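import Vale.Agent.P162.Main
import Vale.Agent.P162.Binom

namespace Vale.Agent.Results.P162.LowerBound

open Vale.Agent.P162

/-- Thorp shuffle of `n = 2 ^ d` cards (`thorpDist (2 ^ (d - 1)) t` is the total variation distance
from uniform after `t` shuffles): up to time `2 d - 2` the distance is at least
`1 - C(n/2, n/4)^2 / C(n, n/2)`, hence at least `1 - 2 / sqrt n` and at least `1 / 3`;
so every `t` with distance at most `1 / 4` satisfies `t ≥ 2 d - 1`. -/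
theorem result (d : ℕ) (hd : 2 ≤ d) :
    (∀ t : ℕ, t ≤ 2 * d - 2 →
      1 - ((2 ^ (d - 1)).choose (2 ^ (d - 2)) : ℝ) ^ 2 / ((2 ^ d).choose (2 ^ (d - 1)) : ℝ)
          ≤ thorpDist (2 ^ (d - 1)) t
        ∧ 1 - 2 / Real.sqrt (2 ^ d) ≤ thorpDist (2 ^ (d - 1)) t
        ∧ 1 / 3 ≤ thorpDist (2 ^ (d - 1)) t)
    ∧ (∀ t : ℕ, thorpDist (2 ^ (d - 1)) t ≤ 1 / 4 → 2 * d - 1 ≤ t) := by
  obtain ⟨j, rfl⟩ : ∃ j, d = j + 2 := ⟨d - 2, by omega⟩
  have e1 : j + 2 - 1 = j + 1 := by omega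
  have e2 : j + 2 - 2 = j := by omega
  have e3 : 2 * (j + 2) - 2 = 2 * (j + 1) := by omega
  have e4 : (2 : ℕ) ^ (j + 2) = 2 * 2 ^ (j + 1) := by ring
  have e5 : (2 : ℕ) ^ (j + 1) = 2 * 2 ^ j := by ring
  have hmain : ∀ t : ℕ, t ≤ 2 * (j + 2) - 2 →
      1 - ((2 ^ (j + 2 - 1)).choose (2 ^ (j + 2 - 2)) : ℝ) ^ 2
            / ((2 ^ (j + 2)).choose (2 ^ (j + 2 - 1)) : ℝ)
          ≤ thorpDist (2 ^ (j + 2 - 1)) t
        ∧ 1 - 2 / Real.sqrt (2 ^ (j + 2)) ≤ thorpDist (2 ^ (j + 2 - 1)) t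
        ∧ 1 / 3 ≤ thorpDist (2 ^ (j + 2 - 1)) t := by
    intro t ht
    rw [e3] at ht
    have h := thorpDist_ge (j + 1) (by omega) t ht
    simp only [Nat.add_sub_cancel] at h
    rw [e1, e2, e4]
    have hb := ratio_bounds (2 ^ j) Nat.one_le_two_pow
    rw [← e5] at hb
    refine ⟨h, ?_, by linarith [hb.1]⟩
    have hs : (1 : ℝ) / Real.sqrt ((2 ^ j : ℕ) : ℝ) = 2 / Real.sqrt (2 ^ (j + 2)) := by
      have : (2 : ℝ) ^ (j + 2) = 2 ^ 2 * ((2 ^ j : ℕ) : ℝ) := by push_cast; ring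
      rw [this, Real.sqrt_mul (by norm_num), Real.sqrt_sq (by norm_num)]
      have hpos : 0 < Real.sqrt ((2 ^ j : ℕ) : ℝ) := Real.sqrt_pos.mpr (by positivity)
      field_simp
    linarith [hb.2]
  refine ⟨hmain, fun t ht => ?_⟩
  by_contra hlt
  have := (hmain t (by omega)).2.2
  linarith

end Vale.Agent.Results.P162.LowerBound
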