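import Vale.Agent.Results.P162.UpperBound

namespace Vale.Agent.Results.P162.V_MixingTimeBound

open Vale.Agent.P162

/-- The mixing time of the Thorp shuffle of `2 * m` cards: the least `t` with total variation
distance from uniform at most `1 / 4` (`sInf` of the set of such `t`). -/
noncomputable def tmix (m : ℕ) : ℕ := sInf {t : ℕ | thorpDist m t ≤ 1 / 4}

/-- `t_mix (2 ^ d) ≤ C d ^ 2` for an absolute constant `C`; the set defining `t_mix` is
nonempty, so the infimum is a genuine minimum. -/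
theorem result :
    ∃ C : ℕ, ∀ d : ℕ, 1 ≤ d →
      {t : ℕ | thorpDist (2 ^ (d - 1)) t ≤ 1 / 4}.Nonempty ∧ tmix (2 ^ (d - 1)) ≤ C * d ^ 2 := by
  obtain ⟨C, hC⟩ := Vale.Agent.Results.P162.UpperBound.result
  refine ⟨C, fun d hd => ?_⟩
  have h : C * d ^ 2 ∈ {t : ℕ | thorpDist (2 ^ (d - 1)) t ≤ 1 / 4} := hC d hd _ le_rfl
  exact ⟨⟨_, h⟩, Nat.sInf_le h⟩

end Vale.Agent.Results.P162.V_MixingTimeBound
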